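import Vale.Agent.P240.R2.H715.SpDefs

/-!
P240, symplectic line, module S4: similitudes that commute modulo scalars with the standard
`D × Q`.
-/

set_option autoImplicit false

namespace Vale.Agent.P240.R2.H43

open Matrix Vale.Agent.P240.R2.AS Vale.Agent.P240.R2.H715
open scoped Classical

universe u

attribute [local instance] ts

noncomputable section

variable {K : Type u} [Field K] {m : ℕ}

/-- the block of an index -/
def bo : Fin m ⊕ Fin m → Fin m := Sum.elim id id

/-- the diagonal entries of the reflection `i` -/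
def vv (K : Type u) [Field K] (i : Fin m) (k : Fin m ⊕ Fin m) : K := if bo k = i then -1 else 1

lemma oM_refl (i : Fin m) :
    oM (diagonal (fun k => if k = i then (-1 : K) else 1)) = diagonal (vv K i) := by
  unfold oM
  rw [fromBlocks_diagonal]
  congr 1
  funext k
  rcases k with k | k <;> rfl

lemma vv_sq (i : Fin m) (k : Fin m ⊕ Fin m) : vv K i k * vv K i k = 1 := by
  unfold vv
  split_ifs <;> ring

/-- the block `i` of a matrix -/
def bk (M : Matrix (Fin m ⊕ Fin m) (Fin m ⊕ Fin m) K) (i : Fin m) : Matrix (Fin 2) (Fin 2) K :=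
  !![M (Sum.inl i) (Sum.inl i), M (Sum.inl i) (Sum.inr i);
    M (Sum.inr i) (Sum.inl i), M (Sum.inr i) (Sum.inr i)]

lemma bk_mul_hM (M : Matrix (Fin m ⊕ Fin m) (Fin m ⊕ Fin m) K) (h : Matrix (Fin 2) (Fin 2) K)
    (i : Fin m) : bk (M * hM m h) i = bk M i * h := by
  unfold bk hM
  ext s t
  fin_cases s <;> fin_cases t <;>
    simp [Matrix.mul_apply, Fin.sum_univ_two, Fintype.sum_sum_type, Matrix.one_apply]

lemma bk_hM_mul (M : Matrix (Fin m ⊕ Fin m) (Fin m ⊕ Fin m) K) (h : Matrix (Fin 2) (Fin 2) K)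
    (i : Fin m) : bk (hM m h * M) i = h * bk M i := by
  unfold bk hM
  ext s t
  fin_cases s <;> fin_cases t <;>
    simp [Matrix.mul_apply, Fin.sum_univ_two, Fintype.sum_sum_type, Matrix.one_apply]

lemma bk_smul (M : Matrix (Fin m ⊕ Fin m) (Fin m ⊕ Fin m) K) (c : K) (i : Fin m) :
    bk (c • M) i = c • bk M i := by
  unfold bk
  ext s t
  fin_cases s <;> fin_cases t <;> simp

/-- a matrix with vanishing entries outside the blocks -/
def Bd (M : Matrix (Fin m ⊕ Fin m) (Fin m ⊕ Fin m) K) : Prop := ∀ k l, bo k ≠ bo l → M k l = 0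

lemma det_bk {M : Matrix (Fin m ⊕ Fin m) (Fin m ⊕ Fin m) K} (hM' : Bd M) {μ : K}
    (hJ : M * J (Fin m) K * Mᵀ = μ • J (Fin m) K) (i : Fin m) : (bk M i).det = μ := by
  have h1 := congrFun (congrFun hJ (Sum.inl i)) (Sum.inr i)
  have h2 : (M * J (Fin m) K * Mᵀ) (Sum.inl i) (Sum.inr i) =
      M (Sum.inl i) (Sum.inr i) * M (Sum.inr i) (Sum.inl i) -
        M (Sum.inl i) (Sum.inl i) * M (Sum.inr i) (Sum.inr i) := by
    have h3 : ∀ l, (M * J (Fin m) K) (Sum.inl i) (Sum.inl l) = M (Sum.inl i) (Sum.inr l) := by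
      intro l
      unfold J
      simp [Matrix.mul_apply, Fintype.sum_sum_type, Matrix.one_apply]
    have h4 : ∀ l, (M * J (Fin m) K) (Sum.inl i) (Sum.inr l) = -M (Sum.inl i) (Sum.inl l) := by
      intro l
      unfold J
      simp [Matrix.mul_apply, Fintype.sum_sum_type, Matrix.one_apply]
    rw [Matrix.mul_apply, Fintype.sum_sum_type]
    simp only [h3, h4, transpose_apply]
    rw [Finset.sum_eq_single i, Finset.sum_eq_single i]
    · ring
    · intro l _ hl
      rw [hM' (Sum.inl i) (Sum.inl l) (by simpa [bo] using hl.symm), neg_zero, zero_mul]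
    · simp
    · intro l _ hl
      rw [hM' (Sum.inl i) (Sum.inr l) (by simpa [bo] using hl.symm), zero_mul]
    · simp
  have h5 : (μ • J (Fin m) K) (Sum.inl i) (Sum.inr i) = -μ := by
    unfold J
    simp
  rw [h2, h5] at h1
  rw [Matrix.det_fin_two]
  unfold bk
  simp
  linear_combination -h1

lemma row_ne {M : Matrix (Fin m ⊕ Fin m) (Fin m ⊕ Fin m) K} {μ : K} (hμ : μ ≠ 0)
    (hJ : M * J (Fin m) K * Mᵀ = μ • J (Fin m) K) (k : Fin m ⊕ Fin m) : ∃ l, M k l ≠ 0 := by
  by_contra h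
  push Not at h
  have h1 : ∀ l, (M * J (Fin m) K * Mᵀ) k l = 0 := by
    intro l
    rw [Matrix.mul_assoc, Matrix.mul_apply]
    exact Finset.sum_eq_zero fun x _ => by rw [h x, zero_mul]
  rw [hJ] at h1
  rcases k with k | k
  · have h2 := h1 (Sum.inr k)
    unfold J at h2
    simp at h2
    exact hμ h2
  · have h2 := h1 (Sum.inl k)
    unfold J at h2
    simp at h2
    exact hμ h2

lemma exists_ne_ne (hm : 3 ≤ m) (i j : Fin m) : ∃ k : Fin m, k ≠ i ∧ k ≠ j := by
  have h : (({i, j} : Finset (Fin m))).card < (Finset.univ : Finset (Fin m)).card := by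
    rw [Finset.card_univ, Fintype.card_fin]
    exact lt_of_le_of_lt Finset.card_le_two (by omega)
  obtain ⟨k, _, hk⟩ := Finset.exists_mem_notMem_of_card_lt_card h
  refine ⟨k, ?_, ?_⟩
  · rintro rfl
    exact hk (by simp)
  · rintro rfl
    exact hk (by simp)

/-- a similitude that commutes modulo scalars with the reflections has only diagonal blocks -/
lemma bd_of (h2 : (2 : K) ≠ 0) (hm : 3 ≤ m) {M : Matrix (Fin m ⊕ Fin m) (Fin m ⊕ Fin m) K} {μ : K}
    (hμ : μ ≠ 0) (hJ : M * J (Fin m) K * Mᵀ = μ • J (Fin m) K)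
    (hR : ∀ i : Fin m, ∃ c : K, M * oM (diagonal (fun k => if k = i then (-1 : K) else 1)) =
      c • (oM (diagonal (fun k => if k = i then (-1 : K) else 1)) * M)) : Bd M := by
  choose c hc using hR
  have he : ∀ i k l, M k l ≠ 0 → vv K i l = c i * vv K i k := by
    intro i k l hkl
    have h := congrFun (congrFun (hc i) k) l
    rw [oM_refl, Matrix.smul_apply, Matrix.mul_diagonal, Matrix.diagonal_mul, smul_eq_mul] at h
    have h' : M k l * vv K i l = M k l * (c i * vv K i k) := by rw [h]; ring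
    exact mul_left_cancel₀ hkl h'
  have hne : (1 : K) ≠ -1 := fun h => h2 (by linear_combination h)
  have v1 : ∀ (i : Fin m) (k : Fin m ⊕ Fin m), bo k = i → vv K i k = -1 :=
    fun i k h => by simp [vv, h]
  have v2 : ∀ (i : Fin m) (k : Fin m ⊕ Fin m), bo k ≠ i → vv K i k = 1 :=
    fun i k h => by simp [vv, h]
  have hc1 : ∀ i, c i = 1 ∨ c i = -1 := by
    intro i
    obtain ⟨l, hl⟩ := row_ne hμ hJ (Sum.inl i)
    have h := he i _ l hl
    have h1 : c i * c i = 1 := by
      have e1 := vv_sq (K := K) i l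
      have e2 := vv_sq (K := K) i (Sum.inl i)
      rw [h] at e1
      linear_combination e1 - c i * c i * e2
    exact mul_self_eq_one_iff.1 h1
  have hc2 : ∀ i, c i ≠ -1 := by
    intro i hi
    -- rows of the blocks different from `i`
    have key : ∀ j, j ≠ i → (∃ l, M (Sum.inl j) l ≠ 0 ∧ bo l = i) := by
      intro j hj
      obtain ⟨l, hl⟩ := row_ne hμ hJ (Sum.inl j)
      refine ⟨l, hl, ?_⟩
      by_contra hli
      have h := he i _ l hl
      rw [v2 i l hli, hi, v2 i (Sum.inl j) hj, mul_one] at h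
      exact hne h
    have key2 : ∀ j, j ≠ i → c j = -1 := by
      intro j hj
      obtain ⟨l, hl, hli⟩ := key j hj
      have h := he j _ l hl
      rw [v2 j l (by rw [hli]; exact hj.symm), v1 j (Sum.inl j) rfl] at h
      linear_combination h
    obtain ⟨j, hj, _⟩ := exists_ne_ne hm i i
    obtain ⟨k, hk, hkj⟩ := exists_ne_ne hm i j
    obtain ⟨l, hl, hli⟩ := key j hj
    have h := he k _ l hl
    rw [v2 k l (by rw [hli]; exact hk.symm), key2 k hk, v2 k (Sum.inl j) hkj.symm, mul_one] at h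
    exact hne h
  intro k l hkl
  by_contra hM
  have h := he (bo k) k l hM
  rw [(hc1 (bo k)).resolve_right (hc2 (bo k)), one_mul, v1 (bo k) k rfl,
    v2 (bo k) l (fun h => hkl h.symm)] at h
  exact hne h

/-- the type of a two by two matrix that commutes modulo signs with the quaternion group -/
lemma typ {a b : S2 K} (hq : QP a b)
    (hT : ∀ (T : Matrix (Fin 2) (Fin 2) K) (c d : K), c ^ 2 = 1 → d ^ 2 = 1 →
      T * a.1 = c • (a.1 * T) → T * b.1 = d • (b.1 * T) →
      ∃ t : K, T = t • (1 : Matrix (Fin 2) (Fin 2) K) ∨ T = t • a.1 ∨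
        T = t • b.1 ∨ T = t • (a.1 * b.1)) {T : Matrix (Fin 2) (Fin 2) K} (hT0 : T.det ≠ 0) {c d : K}
    (ha : T * a.1 = c • (a.1 * T)) (hb : T * b.1 = d • (b.1 * T)) :
    ∃ t : K, t ^ 2 = T.det ∧
      ((c = 1 ∧ d = 1 ∧ T = t • (1 : Matrix (Fin 2) (Fin 2) K)) ∨
      (c = 1 ∧ d = -1 ∧ T = t • a.1) ∨ (c = -1 ∧ d = 1 ∧ T = t • b.1) ∨
      (c = -1 ∧ d = -1 ∧ T = t • (a.1 * b.1))) := by
  have hTne : T ≠ 0 := by
    rintro rfl
    exact hT0 (by simp)
  obtain ⟨qa, qb, qc⟩ := hq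
  have sq1 : ∀ (A : Matrix (Fin 2) (Fin 2) K) (e : K), A * A = -1 → T * A = e • (A * T) →
      e ^ 2 = 1 := by
    intro A e hA hTA
    have h : T * A * A = (e * e) • (A * A * T) := by
      rw [hTA, smul_mul_assoc, Matrix.mul_assoc, hTA, mul_smul_comm, smul_smul, Matrix.mul_assoc]
    rw [Matrix.mul_assoc, hA] at h
    have h' : (1 - e * e) • T = 0 := by
      rw [sub_smul, one_smul]
      have : T = (e * e) • T := by
        have h3 : -T = -((e * e) • T) := by
          rw [← smul_neg]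
          simpa using h
        exact neg_injective h3
      rw [← this, sub_self]
    rcases smul_eq_zero.1 h' with h4 | h4
    · linear_combination -h4
    · exact absurd h4 hTne
  have hc := sq1 a.1 c qa ha
  have hd := sq1 b.1 d qb hb
  have hdetab : (a.1 * b.1).det = 1 := by rw [Matrix.det_mul, a.2, b.2, one_mul]
  have ne0 : ∀ (A : Matrix (Fin 2) (Fin 2) K), A.det = 1 → A ≠ 0 := by
    rintro A hA rfl
    simp at hA
  have hane := ne0 a.1 a.2
  have hbne := ne0 b.1 b.2
  have habne := ne0 _ hdetab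
  have aba : a.1 * b.1 * a.1 = b.1 := by
    rw [qc, Matrix.neg_mul, Matrix.mul_assoc, qa]
    simp
  have bab : b.1 * (a.1 * b.1) = a.1 := by
    rw [qc, Matrix.mul_neg, ← Matrix.mul_assoc, qb]
    simp
  have aab : a.1 * (a.1 * b.1) = -b.1 := by
    rw [← Matrix.mul_assoc, qa]
    simp
  have abb : a.1 * b.1 * b.1 = -a.1 := by
    rw [Matrix.mul_assoc, qb]
    simp
  have ba : b.1 * a.1 = -(a.1 * b.1) := by rw [qc, neg_neg]
  have sm0 : ∀ (x : K) (A : Matrix (Fin 2) (Fin 2) K), A ≠ 0 → x • A = 0 → x = 0 := by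
    intro x A hA h
    exact (smul_eq_zero.1 h).resolve_right hA
  obtain ⟨t, h⟩ := hT T c d hc hd ha hb
  have ht : t ≠ 0 := by
    rintro rfl
    simp only [zero_smul, or_self] at h
    exact hTne h
  have hdt : ∀ A : Matrix (Fin 2) (Fin 2) K, A.det = 1 → T = t • A → t ^ 2 = T.det := by
    intro A hA hTA
    rw [hTA, Matrix.det_smul, hA, Fintype.card_fin, mul_one]
  rcases h with h | h | h | h
  · refine ⟨t, hdt _ (by simp) h, Or.inl ⟨?_, ?_, h⟩⟩
    · rw [h] at ha
      have h5 : (t - c * t) • a.1 = 0 := by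
        rw [sub_smul, mul_smul]
        simpa [sub_eq_zero] using ha
      have h6 := sm0 _ _ hane h5
      have h7 : t * (1 - c) = 0 := by linear_combination h6
      have h8 := (mul_eq_zero.1 h7).resolve_left ht
      linear_combination -h8
    · rw [h] at hb
      have h5 : (t - d * t) • b.1 = 0 := by
        rw [sub_smul, mul_smul]
        simpa [sub_eq_zero] using hb
      have h6 := sm0 _ _ hbne h5
      have h7 : t * (1 - d) = 0 := by linear_combination h6
      have h8 := (mul_eq_zero.1 h7).resolve_left ht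
      linear_combination -h8
  · refine ⟨t, hdt _ a.2 h, Or.inr (Or.inl ⟨?_, ?_, h⟩)⟩
    · rw [h, smul_mul_assoc, mul_smul_comm, smul_smul, ← sub_eq_zero, ← sub_smul] at ha
      have h6 := sm0 _ _ (by rw [qa]; simp) ha
      have h7 : t * (1 - c) = 0 := by linear_combination h6
      have h8 := (mul_eq_zero.1 h7).resolve_left ht
      linear_combination -h8
    · rw [h, smul_mul_assoc, mul_smul_comm, smul_smul, ba, smul_neg, ← sub_eq_zero, sub_neg_eq_add,
        ← add_smul] at hb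
      have h6 := sm0 _ _ habne hb
      have h7 : t * (1 + d) = 0 := by linear_combination h6
      have h8 := (mul_eq_zero.1 h7).resolve_left ht
      linear_combination h8
  · refine ⟨t, hdt _ b.2 h, Or.inr (Or.inr (Or.inl ⟨?_, ?_, h⟩))⟩
    · rw [h, smul_mul_assoc, mul_smul_comm, smul_smul, ba, smul_neg, ← sub_eq_zero] at ha
      have h5 : (-(t + c * t)) • (a.1 * b.1) = 0 := by
        rw [neg_smul, add_smul]
        rw [← ha]
        abel
      have h6 := sm0 _ _ habne h5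
      have h7 : t * (1 + c) = 0 := by linear_combination -h6
      have h8 := (mul_eq_zero.1 h7).resolve_left ht
      linear_combination h8
    · rw [h, smul_mul_assoc, mul_smul_comm, smul_smul, ← sub_eq_zero, ← sub_smul] at hb
      have h6 := sm0 _ _ (by rw [qb]; simp) hb
      have h7 : t * (1 - d) = 0 := by linear_combination h6
      have h8 := (mul_eq_zero.1 h7).resolve_left ht
      linear_combination -h8
  · refine ⟨t, hdt _ hdetab h, Or.inr (Or.inr (Or.inr ⟨?_, ?_, h⟩))⟩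
    · rw [h, smul_mul_assoc, mul_smul_comm, smul_smul, aba, aab, smul_neg, ← sub_eq_zero,
        sub_neg_eq_add, ← add_smul] at ha
      have h6 := sm0 _ _ hbne ha
      have h7 : t * (1 + c) = 0 := by linear_combination h6
      have h8 := (mul_eq_zero.1 h7).resolve_left ht
      linear_combination h8
    · rw [h, smul_mul_assoc, mul_smul_comm, smul_smul, abb, bab, smul_neg, ← sub_eq_zero] at hb
      have h5 : (-(t + d * t)) • a.1 = 0 := by
        rw [neg_smul, add_smul]
        rw [← hb]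
        abel
      have h6 := sm0 _ _ hane h5
      have h7 : t * (1 + d) = 0 := by linear_combination -h6
      have h8 := (mul_eq_zero.1 h7).resolve_left ht
      linear_combination h8

/-- reassembling a block diagonal matrix -/
lemma eq_of_bk {M N : Matrix (Fin m ⊕ Fin m) (Fin m ⊕ Fin m) K} (hM' : Bd M) (hN' : Bd N)
    (h : ∀ i, bk M i = bk N i) : M = N := by
  ext k l
  by_cases hkl : bo k = bo l
  · rcases k with k | k <;> rcases l with l | l
    all_goals
      have e : k = l := hkl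
      subst e
      have h1 := h k
      unfold bk at h1
    · exact congrFun (congrFun h1 0) 0
    · exact congrFun (congrFun h1 0) 1
    · exact congrFun (congrFun h1 1) 0
    · exact congrFun (congrFun h1 1) 1
  · rw [hM' k l hkl, hN' k l hkl]

lemma bd_oMhM (t : K) (d : Fin m → K) (q : Matrix (Fin 2) (Fin 2) K) :
    Bd (t • (oM (diagonal d) * hM m q)) := by
  intro k l hkl
  rw [oM_hM]
  rcases k with k | k <;> rcases l with l | l
  all_goals
    have e : k ≠ l := hkl
    simp [Matrix.diagonal_apply_ne _ e]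

lemma bk_oMhM (t : K) (d : Fin m → K) (q : Matrix (Fin 2) (Fin 2) K) (i : Fin m) :
    bk (t • (oM (diagonal d) * hM m q)) i = (t * d i) • q := by
  rw [oM_hM]
  unfold bk
  ext s u
  fin_cases s <;> fin_cases u <;> simp <;> ring

/-- **S4** -/
theorem stmtS4 : ∀ (K : Type u) [Field K] [Fintype K], (2 : K) ≠ 0 → ∀ (m : ℕ), 3 ≤ m →
    ∀ a b : S2 K, QP a b →
    (∀ (T : Matrix (Fin 2) (Fin 2) K) (c d : K), c ^ 2 = 1 → d ^ 2 = 1 → T * a.1 = c • (a.1 * T) →
      T * b.1 = d • (b.1 * T) → ∃ t : K, T = t • (1 : Matrix (Fin 2) (Fin 2) K) ∨ T = t • a.1 ∨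
        T = t • b.1 ∨ T = t • (a.1 * b.1)) →
    ∀ (M : Matrix (Fin m ⊕ Fin m) (Fin m ⊕ Fin m) K) (μ : K), μ ≠ 0 →
    M * J (Fin m) K * Mᵀ = μ • J (Fin m) K →
    (∀ i : Fin m, ∃ c : K, M * oM (diagonal (fun k => if k = i then (-1 : K) else 1)) =
      c • (oM (diagonal (fun k => if k = i then (-1 : K) else 1)) * M)) →
    (∃ c : K, M * hM m a.1 = c • (hM m a.1 * M)) → (∃ c : K, M * hM m b.1 = c • (hM m b.1 * M)) →
    ∃ (t : K) (d : Fin m → K) (q : Matrix (Fin 2) (Fin 2) K), t ≠ 0 ∧ (∀ i, d i = 1 ∨ d i = -1) ∧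
      (q = 1 ∨ q = a.1 ∨ q = b.1 ∨ q = a.1 * b.1) ∧ M = t • (oM (diagonal d) * hM m q) := by
  intro K _ _ h2 m hm a b hq hT M μ hμ hJ hR hA hB
  have hBd := bd_of h2 hm hμ hJ hR
  obtain ⟨c, hc⟩ := hA
  obtain ⟨d, hd⟩ := hB
  have hdet : ∀ i, (bk M i).det = μ := det_bk hBd hJ
  have hne : (1 : K) ≠ -1 := fun h => h2 (by linear_combination h)
  have key : ∀ i, ∃ t : K, t ^ 2 = μ ∧
      ((c = 1 ∧ d = 1 ∧ bk M i = t • (1 : Matrix (Fin 2) (Fin 2) K)) ∨
      (c = 1 ∧ d = -1 ∧ bk M i = t • a.1) ∨ (c = -1 ∧ d = 1 ∧ bk M i = t • b.1) ∨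
      (c = -1 ∧ d = -1 ∧ bk M i = t • (a.1 * b.1))) := by
    intro i
    have h := typ hq hT (T := bk M i) (c := c) (d := d) (by rw [hdet]; exact hμ)
      (by rw [← bk_mul_hM, ← bk_hM_mul, hc, bk_smul]) (by rw [← bk_mul_hM, ← bk_hM_mul, hd, bk_smul])
    rw [hdet] at h
    exact h
  -- the common type
  have key2 : ∃ q : Matrix (Fin 2) (Fin 2) K, (q = 1 ∨ q = a.1 ∨ q = b.1 ∨ q = a.1 * b.1) ∧
      ∀ i, ∃ t : K, t ^ 2 = μ ∧ bk M i = t • q := by
    have i0 : Fin m := ⟨0, by omega⟩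
    obtain ⟨_, _, h0⟩ := key i0
    rcases h0 with ⟨h1, h3, _⟩ | ⟨h1, h3, _⟩ | ⟨h1, h3, _⟩ | ⟨h1, h3, _⟩
    · refine ⟨1, Or.inl rfl, fun i => ?_⟩
      obtain ⟨t, ht, h⟩ := key i
      rcases h with ⟨e1, e2, h⟩ | ⟨e1, e2, h⟩ | ⟨e1, e2, h⟩ | ⟨e1, e2, h⟩
      · exact ⟨t, ht, h⟩
      · exact absurd (h3.symm.trans e2) hne
      · exact absurd (h1.symm.trans e1) hne
      · exact absurd (h1.symm.trans e1) hne
    · refine ⟨a.1, Or.inr (Or.inl rfl), fun i => ?_⟩
      obtain ⟨t, ht, h⟩ := key i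
      rcases h with ⟨e1, e2, h⟩ | ⟨e1, e2, h⟩ | ⟨e1, e2, h⟩ | ⟨e1, e2, h⟩
      · exact absurd (e2.symm.trans h3) hne
      · exact ⟨t, ht, h⟩
      · exact absurd (h1.symm.trans e1) hne
      · exact absurd (h1.symm.trans e1) hne
    · refine ⟨b.1, Or.inr (Or.inr (Or.inl rfl)), fun i => ?_⟩
      obtain ⟨t, ht, h⟩ := key i
      rcases h with ⟨e1, e2, h⟩ | ⟨e1, e2, h⟩ | ⟨e1, e2, h⟩ | ⟨e1, e2, h⟩
      · exact absurd (e1.symm.trans h1) hne
      · exact absurd (e1.symm.trans h1) hne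
      · exact ⟨t, ht, h⟩
      · exact absurd (h3.symm.trans e2) hne
    · refine ⟨a.1 * b.1, Or.inr (Or.inr (Or.inr rfl)), fun i => ?_⟩
      obtain ⟨t, ht, h⟩ := key i
      rcases h with ⟨e1, e2, h⟩ | ⟨e1, e2, h⟩ | ⟨e1, e2, h⟩ | ⟨e1, e2, h⟩
      · exact absurd (e1.symm.trans h1) hne
      · exact absurd (e1.symm.trans h1) hne
      · exact absurd (e2.symm.trans h3) hne
      · exact ⟨t, ht, h⟩
  obtain ⟨q, hq', hall⟩ := key2
  choose t ht ht' using hall
  obtain ⟨i0, _⟩ : ∃ i0 : Fin m, True := ⟨⟨0, by omega⟩, trivial⟩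
  have ht0 : t i0 ≠ 0 := by
    intro h
    have h1 := ht i0
    rw [h] at h1
    exact hμ (by rw [← h1]; ring)
  refine ⟨t i0, fun i => t i / t i0, q, ht0, fun i => ?_, hq', ?_⟩
  · have h1 : t i / t i0 * (t i / t i0) = 1 := by
      rw [div_mul_div_comm, ← sq, ← sq, ht, ht, div_self hμ]
    exact mul_self_eq_one_iff.1 h1
  · refine eq_of_bk hBd (bd_oMhM _ _ _) fun i => ?_
    rw [bk_oMhM, ht' i, mul_div_cancel₀ _ ht0]

end

end Vale.Agent.P240.R2.H43
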